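import Vale.Agent.Lib.P309.Stage.Defs

namespace Vale.Agent.Lib.P309

open MeasureTheory ProbabilityTheory Metric Set
open scoped ENNReal

theorem measurable_mix {d m : ℕ} :
    Measurable (fun q : Vec m × (Fin m → Vec d) => mix q.1 q.2) := by
  have hc : Continuous (fun q : Vec m × (Fin m → Vec d) => mix q.1 q.2) := by
    unfold mix
    fun_prop
  exact hc.measurable

/-- A subfamily of independent identically distributed coordinates is again a product. -/
lemma mixaux_pi_castLE {r m : ℕ} (h : r ≤ m) (μ : Measure ℝ) [IsProbabilityMeasure μ] :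
    (Measure.pi (fun _ : Fin m => μ)).map
        (fun x : Fin m → ℝ => fun i : Fin r => x (Fin.castLE h i))
      = Measure.pi (fun _ : Fin r => μ) := by
  symm
  apply Measure.pi_eq
  intro s hs
  rw [Measure.map_apply (by fun_prop) (MeasurableSet.univ_pi hs)]
  have hpre : (fun x : Fin m → ℝ => fun i : Fin r => x (Fin.castLE h i)) ⁻¹' (Set.pi univ s)
      = Set.pi univ (fun k : Fin m => if hk : (k : ℕ) < r then s ⟨k, hk⟩ else univ) := by
    ext x
    simp only [Set.mem_preimage, Set.mem_pi, Set.mem_univ, forall_true_left]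
    constructor
    · intro hx k
      by_cases hk : (k : ℕ) < r
      · rw [dif_pos hk]
        exact hx ⟨k, hk⟩
      · rw [dif_neg hk]
        trivial
    · intro hx i
      have h1 := hx (Fin.castLE h i)
      rw [dif_pos (by simp : ((Fin.castLE h i : Fin m) : ℕ) < r)] at h1
      exact h1
  rw [hpre, Measure.pi_pi]
  symm
  apply Fintype.prod_of_injective (Fin.castLE h) (Fin.castLE_injective h)
  · intro k hk
    have hk' : ¬ (k : ℕ) < r := by
      intro hlt
      exact hk ⟨⟨k, hlt⟩, by ext; simp⟩
    rw [dif_neg hk']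
    simp
  · intro i
    rw [dif_pos (by simp : ((Fin.castLE h i : Fin m) : ℕ) < r)]
    rfl

/-- One column: orthonormal combinations of independent standard real Gaussians are independent
standard real Gaussians. -/
lemma mixaux_column {m r : ℕ} (U : Fin r → Vec m) (hU : Orthonormal ℝ U) :
    (Measure.pi (fun _ : Fin m => gaussianReal 0 1)).map
        (fun ξ : Fin m → ℝ => fun i : Fin r => ∑ j, U i j * ξ j)
      = Measure.pi (fun _ : Fin r => gaussianReal 0 1) := by
  have hrm : r ≤ m := by
    have h1 := hU.linearIndependent.fintype_card_le_finrank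
    simpa using h1
  let v : Fin m → Vec m := fun k => if hk : (k : ℕ) < r then U ⟨k, hk⟩ else 0
  let s : Set (Fin m) := {k | (k : ℕ) < r}
  have hv : Orthonormal ℝ (s.domRestrict v) := by
    have hf : Function.Injective (fun x : s => (⟨(x : Fin m), x.2⟩ : Fin r)) := by
      intro x y hxy
      have h2 : ((x : Fin m) : ℕ) = ((y : Fin m) : ℕ) := by
        have h4 := congrArg (fun z : Fin r => (z : ℕ)) hxy
        simpa using h4
      exact Subtype.ext (Fin.ext h2)
    have h3 : s.domRestrict v = U ∘ (fun x : s => (⟨(x : Fin m), x.2⟩ : Fin r)) := by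
      funext x
      have hx : ((x : Fin m) : ℕ) < r := x.2
      simp [Set.domRestrict, v, hx]
    rw [h3]
    exact hU.comp _ hf
  obtain ⟨b, hb⟩ := Orthonormal.exists_orthonormalBasis_extension_of_card_eq (𝕜 := ℝ)
    (E := Vec m) (ι := Fin m) (by simp) hv
  have hbU : ∀ i : Fin r, b (Fin.castLE hrm i) = U i := by
    intro i
    have hi : ((Fin.castLE hrm i : Fin m) : ℕ) < r := by simp
    rw [hb (Fin.castLE hrm i) hi]
    simp [v]
  have hcomp : (fun ξ : Fin m → ℝ => fun i : Fin r => ∑ j, U i j * ξ j)
      = (fun g : Vec m => fun i : Fin r => inner ℝ (U i) g) ∘ (WithLp.toLp 2) := by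
    funext ξ i
    simp [EuclideanSpace.inner_eq_star_dotProduct, dotProduct, mul_comm]
  have hm1 : Measurable (fun g : Vec m => fun i : Fin r => inner ℝ (U i) g) := by
    fun_prop
  have hm2 : Measurable (fun x : Fin m → ℝ => ∑ k, x k • b k) := by
    fun_prop
  rw [hcomp, ← Measure.map_map hm1 (by fun_prop), map_pi_eq_stdGaussian,
    stdGaussian_eq_map_pi_orthonormalBasis b, Measure.map_map hm1 hm2]
  have hcomp2 : (fun g : Vec m => fun i : Fin r => inner ℝ (U i) g) ∘
      (fun x : Fin m → ℝ => ∑ k, x k • b k)
      = fun x : Fin m → ℝ => fun i : Fin r => x (Fin.castLE hrm i) := by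
    funext x i
    simp only [Function.comp_apply]
    rw [← hbU i]
    exact b.orthonormal.inner_right_fintype x (Fin.castLE hrm i)
  rw [hcomp2]
  exact mixaux_pi_castLE hrm (gaussianReal 0 1)

end Vale.Agent.Lib.P309
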