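import Vale.Agent.Lib.P309.Model

namespace Vale.Agent.Lib.P309

open MeasureTheory ProbabilityTheory Metric Set
open scoped ENNReal

/-- The combination of the rows `Y j` with the coefficients `c j`. -/
noncomputable def mix {d m : ℕ} (c : Vec m) (Y : Fin m → Vec d) : Vec d :=
  ∑ j : Fin m, c j • Y j

end Vale.Agent.Lib.P309
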