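import Vale.Agent.Lib.P309.Model

namespace Vale.Agent.Lib.P309

open MeasureTheory ProbabilityTheory Metric Set
open scoped ENNReal

/-- The coordinate map pushes the standard Gaussian of `ℝ^d` to the product of standard real
Gaussians. -/
theorem gtrans_coord (d : ℕ) :
    (stdGaussian (Vec d)).map (fun (x : Vec d) (c : Fin d) => x c)
      = Measure.pi (fun _ : Fin d => gaussianReal 0 1) := by
  have h1 : Measurable (fun (x : Vec d) (c : Fin d) => x c) :=
    WithLp.measurable_ofLp 2 (Fin d → ℝ)
  have h2 : Measurable (WithLp.toLp 2 : (Fin d → ℝ) → Vec d) :=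
    WithLp.measurable_toLp 2 (Fin d → ℝ)
  rw [← map_pi_eq_stdGaussian, Measure.map_map h1 h2]
  have h3 : ((fun (x : Vec d) (c : Fin d) => x c) ∘ (WithLp.toLp 2 : (Fin d → ℝ) → Vec d))
      = id := by
    funext x
    rfl
  rw [h3, Measure.map_id]

end Vale.Agent.Lib.P309
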