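import Vale.Agent.Lib.P309.Multi.Main

namespace Vale.Agent.Lib.P309

open MeasureTheory ProbabilityTheory Metric Set
open scoped ENNReal

variable {d M : ℕ}

/-- Weight of the memory pair `p'` after `a` further samples `X'` of the signal `s`, when the
learner is restarted at index `t` in the pair `p`. -/
noncomputable def muT (L : Learner d M) (t a : ℕ) (p p' : St M) (X' : Fin a → Vec d)
    (s : Sph d) : ℝ≥0∞ :=
  L.contFrom t (zOf (appendX t (fun _ => 0) (appendX a X' (fun _ => 0))) s) a p {p'}

/-- A concatenation read inside its finite block. -/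
lemma lsplit_appendX_lt {E : Type*} (n : ℕ) (X' : Fin n → E) (X'' : ℕ → E) (i : ℕ)
    (h : i < n) : appendX n X' X'' i = X' ⟨i, h⟩ := by
  show (if h : i < n then X' ⟨i, h⟩ else X'' (i - n)) = X' ⟨i, h⟩
  rw [dif_pos h]

/-- A concatenation read after its finite block. -/
lemma lsplit_appendX_ge {E : Type*} (n : ℕ) (X' : Fin n → E) (X'' : ℕ → E) (i : ℕ)
    (h : n ≤ i) : appendX n X' X'' i = X'' (i - n) := by
  show (if h : i < n then X' ⟨i, h⟩ else X'' (i - n)) = X'' (i - n)
  rw [dif_neg (not_lt.mpr h)]

/-- A double concatenation read inside its middle block. -/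
lemma lsplit_appendX_mid {E : Type*} (t a : ℕ) (Z : Fin t → E) (X' : Fin a → E) (Y : ℕ → E)
    (i : ℕ) (h1 : t ≤ i) (h2 : i < t + a) :
    appendX t Z (appendX a X' Y) i = X' ⟨i - t, by omega⟩ := by
  rw [lsplit_appendX_ge t Z _ i h1, lsplit_appendX_lt a X' Y (i - t) (by omega)]

/-- A double concatenation read after its middle block. -/
lemma lsplit_appendX_far {E : Type*} (t a : ℕ) (Z : Fin t → E) (X' : Fin a → E) (Y : ℕ → E)
    (i : ℕ) (h : t + a ≤ i) :
    appendX t Z (appendX a X' Y) i = Y (i - (t + a)) := by
  rw [lsplit_appendX_ge t Z _ i (by omega), lsplit_appendX_ge a X' Y (i - t) (by omega),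
    Nat.sub_sub]

/-- The data sequence at an index depends only on the row at that index. -/
lemma lsplit_zOf_congr (X X₂ : ℕ → Vec d) (s : Sph d) (i : ℕ) (h : X i = X₂ i) :
    zOf X s i = zOf X₂ s i := by
  show (X i, inner ℝ (X i) (s : Vec d)) = (X₂ i, inner ℝ (X₂ i) (s : Vec d))
  rw [h]

/-- Semigroup property of the continuation of a restarted learner. -/
lemma lsplit_contFrom_add (L : Learner d M) (t : ℕ) (z : ℕ → Vec d × ℝ) (a b : ℕ) (p : St M) :
    L.contFrom t z (a + b) p = (L.contFrom t z a p).bind (L.contFrom (t + a) z b) := by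
  induction b with
  | zero =>
    have h : L.contFrom (t + a) z 0 = Measure.dirac := by
      funext q
      rfl
    rw [h, Measure.bind_dirac]
    rfl
  | succ b ih =>
    have h : L.contFrom (t + a) z (b + 1)
        = fun q => (L.contFrom (t + a) z b q).bind (L.stepF (t + a + b) z) := by
      funext q
      rfl
    rw [← add_assoc, Learner.contFrom_succ, ih, h,
      Measure.bind_bind (measurable_of_countable _).aemeasurable
        (measurable_of_countable _).aemeasurable, add_assoc]

/-- The output law of a restarted learner, cut after `a` further steps. -/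
lemma lsplit_decLaw_add (L : Learner d M) (t a b : ℕ) (z : ℕ → Vec d × ℝ) (p : St M)
    (A : Set (Sph d)) (hA : MeasurableSet A) :
    L.decLaw t (a + b) z p A
      = ∑ p' : St M, L.contFrom t z a p {p'} * L.decLaw (t + a) b z p' A := by
  unfold Learner.decLaw
  rw [outLaw_apply L _ A hA, lsplit_contFrom_add L t z a b p]
  have h1 : ∀ q : St M, ((L.contFrom t z a p).bind (L.contFrom (t + a) z b)) {q}
      = ∑ p' : St M, L.contFrom t z a p {p'} * L.contFrom (t + a) z b p' {q} :=
    fun q => bind_apply_St _ _ _ (MeasurableSet.singleton q)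
  simp only [h1, outLaw_apply L _ A hA, Finset.sum_mul, Finset.mul_sum]
  rw [Finset.sum_comm]
  refine Finset.sum_congr rfl (fun p' _ => Finset.sum_congr rfl (fun q _ => ?_))
  rw [mul_assoc]

lemma measurable_muT (L : Learner d M) (t a : ℕ) (p p' : St M) :
    Measurable (fun q : (Fin a → Vec d) × Sph d => muT L t a p p' q.1 q.2) := by
  have h0 : Measurable (fun q : (Fin a → Vec d) × Sph d =>
      appendX a q.1 (fun _ => (0 : Vec d))) := by
    have h := measurable_appendX (E := Vec d) a
    have h' : Measurable (fun q : (Fin a → Vec d) × Sph d =>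
        ((q.1, fun _ => (0 : Vec d)) : (Fin a → Vec d) × (ℕ → Vec d))) :=
      measurable_fst.prodMk measurable_const
    exact h.comp h'
  have h1 : Measurable (fun q : (Fin a → Vec d) × Sph d =>
      ((appendX t (fun _ => (0 : Vec d)) (appendX a q.1 (fun _ => (0 : Vec d))), q.2) :
        (ℕ → Vec d) × Sph d)) := by
    refine Measurable.prodMk ?_ measurable_snd
    have h := measurable_appendX (E := Vec d) t
    have h' : Measurable (fun q : (Fin a → Vec d) × Sph d =>
        (((fun _ => (0 : Vec d)), appendX a q.1 (fun _ => (0 : Vec d))) :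
          (Fin t → Vec d) × (ℕ → Vec d))) :=
      measurable_const.prodMk h0
    exact h.comp h'
  exact (L.measurable_contFrom t a p p').comp (measurable_zOf.comp h1)

lemma sum_muT (L : Learner d M) (t a : ℕ) (p : St M) (X' : Fin a → Vec d) (s : Sph d) :
    ∑ p' : St M, muT L t a p p' X' s = 1 := by
  unfold muT
  have := L.contFrom_isProb t
    (zOf (appendX t (fun _ => 0) (appendX a X' (fun _ => 0))) s) a p
  rw [sum_measure_singleton, Finset.coe_univ]
  exact measure_univ

/-- The decoding probability along a concatenated continuation. -/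
lemma lsplit_phiW_appendX (L : Learner d M) (t a b : ℕ) (ε : ℝ) (p : St M) (s : Sph d)
    (X' : Fin a → Vec d) (X''' : ℕ → Vec d) :
    phiW L t (a + b) ε p (appendX a X' X''') s
      = ∑ p' : St M, muT L t a p p' X' s * phiW L (t + a) b ε p' X''' s := by
  have hA : MeasurableSet (Prod.mk s ⁻¹' goodPairs d ε) :=
    measurable_prodMk_left (measurableSet_goodPairs d ε)
  unfold phiW muT
  rw [lsplit_decLaw_add L t a b _ p _ hA]
  refine Finset.sum_congr rfl (fun p' _ => ?_)
  have h1 : L.contFrom t
        (zOf (appendX t (fun _ => (0 : Vec d)) (appendX a X' X''')) s) a p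
      = L.contFrom t
        (zOf (appendX t (fun _ => (0 : Vec d)) (appendX a X' (fun _ => (0 : Vec d)))) s)
          a p := by
    apply L.contFrom_congr
    intro i hi1 hi2
    apply lsplit_zOf_congr
    rw [lsplit_appendX_mid t a _ X' _ i hi1 hi2, lsplit_appendX_mid t a _ X' _ i hi1 hi2]
  have h2 : L.decLaw (t + a) b
        (zOf (appendX t (fun _ => (0 : Vec d)) (appendX a X' X''')) s) p'
      = L.decLaw (t + a) b (zOf (appendX (t + a) (fun _ => (0 : Vec d)) X''') s) p' := by
    apply L.decLaw_congr
    intro i hi1 _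
    apply lsplit_zOf_congr
    rw [lsplit_appendX_far t a _ X' _ i hi1, lsplit_appendX_ge (t + a) _ _ i hi1]
  rw [h1, h2]

/-- Cutting the continuation of a restarted learner after `a` further samples. -/
theorem phiBar_split (L : Learner d M) (t a b : ℕ) (ε : ℝ) (p : St M) (s : Sph d) :
    phiBar L t (a + b) ε p s
      = ∫⁻ X', ∑ p' : St M, muT L t a p p' X' s * phiBar L (t + a) b ε p' s
          ∂(Measure.pi (fun _ : Fin a => stdGaussian (Vec d))) := by
  have hphi : Measurable (fun X'' : ℕ → Vec d => phiW L t (a + b) ε p X'' s) := by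
    have h := (measurable_phiW L t (a + b) ε p).comp
      (measurable_id.prodMk (measurable_const (a := s)))
    exact h
  have hphi' : ∀ p' : St M,
      Measurable (fun X'' : ℕ → Vec d => phiW L (t + a) b ε p' X'' s) := by
    intro p'
    have h := (measurable_phiW L (t + a) b ε p').comp
      (measurable_id.prodMk (measurable_const (a := s)))
    exact h
  have hsplit := infinitePi_eq_map_appendX (stdGaussian (Vec d)) a
  have hap : Measurable (fun q : (Fin a → Vec d) × (ℕ → Vec d) => appendX a q.1 q.2) :=
    measurable_appendX a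
  calc phiBar L t (a + b) ε p s
      = ∫⁻ X'', phiW L t (a + b) ε p X'' s
        ∂(((Measure.pi (fun _ : Fin a => stdGaussian (Vec d))).prod
          (Measure.infinitePi (fun _ : ℕ => stdGaussian (Vec d)))).map
            (fun q => appendX a q.1 q.2)) := by
        rw [← hsplit]
        rfl
    _ = ∫⁻ q, phiW L t (a + b) ε p (appendX a q.1 q.2) s
        ∂((Measure.pi (fun _ : Fin a => stdGaussian (Vec d))).prod
          (Measure.infinitePi (fun _ : ℕ => stdGaussian (Vec d)))) :=
        lintegral_map hphi hap
    _ = ∫⁻ X', ∫⁻ X''', phiW L t (a + b) ε p (appendX a X' X''') s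
        ∂(Measure.infinitePi (fun _ : ℕ => stdGaussian (Vec d)))
        ∂(Measure.pi (fun _ : Fin a => stdGaussian (Vec d))) :=
        lintegral_prod _ (hphi.comp hap).aemeasurable
    _ = _ := by
        refine lintegral_congr (fun X' => ?_)
        simp_rw [lsplit_phiW_appendX L t a b ε p s X']
        rw [lintegral_finsetSum _ (fun p' _ => (hphi' p').const_mul _)]
        refine Finset.sum_congr rfl (fun p' _ => ?_)
        rw [lintegral_const_mul _ (hphi' p')]
        rfl

end Vale.Agent.Lib.P309
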