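import Vale.Agent.Lib.P309.Geo.Basic
import Vale.Agent.Lib.P309.Multi.Main

namespace Vale.Agent.Lib.P309

open MeasureTheory ProbabilityTheory Metric Set
open scoped ENNReal

variable {d M : ℕ}

/-- The success probability is controlled by the restarted learners at index `0`. -/
theorem successProb_le_of_phiBar (hd : 1 ≤ d) (L : Learner d M) (T : ℕ) (ε : ℝ) (c π : ℝ≥0∞)
    (h : ∀ p : St M, ∃ Γ : Sph d → ℝ≥0∞, Measurable Γ ∧
      (∀ s, phiBar L 0 T ε p s ≤ c + Γ s) ∧ ∫⁻ s, Γ s ∂(uniformSphere d) ≤ π) :
    L.successProb T ε ≤ c + π := by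
  classical
  choose Γ hΓm hΓb hΓi using h
  have hprob : IsProbabilityMeasure (uniformSphere d) := ⟨uniformSphere_univ hd⟩
  have hQ1 : ((Measure.pi (fun _ : Fin 0 => stdGaussian (Vec d))).prod
      (Measure.pi (fun _ : Fin 0 => stdGaussian (Vec d)))).map Prod.fst
      = Measure.pi (fun _ : Fin 0 => stdGaussian (Vec d)) := by
    rw [Measure.map_fst_prod, measure_univ, one_smul]
  have hkey := successProb_eq_coupling L 0 T ε
    ((Measure.pi (fun _ : Fin 0 => stdGaussian (Vec d))).prod
      (Measure.pi (fun _ : Fin 0 => stdGaussian (Vec d)))) hQ1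
  rw [zero_add] at hkey
  have hmu : ∀ (p : St M) (X' : Fin 0 → Vec d) (s : Sph d),
      muW L 0 p X' s = (L.init.map (fun j => (j, false))) {p} := fun _ _ _ => rfl
  have hw : ∑ p : St M, (L.init.map (fun j => (j, false))) {p} = 1 :=
    L.sum_runOn_singleton (fun _ => (0, 0)) 0
  rw [hkey]
  simp only [hmu, lintegral_const, measure_univ, mul_one]
  calc ∫⁻ s, ∑ p : St M, (L.init.map (fun j => (j, false))) {p} * phiBar L 0 T ε p s
        ∂(uniformSphere d)
      ≤ ∫⁻ s, (c + ∑ p : St M, (L.init.map (fun j => (j, false))) {p} * Γ p s)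
          ∂(uniformSphere d) := by
        refine lintegral_mono (fun s => ?_)
        calc ∑ p : St M, (L.init.map (fun j => (j, false))) {p} * phiBar L 0 T ε p s
            ≤ ∑ p : St M, (L.init.map (fun j => (j, false))) {p} * (c + Γ p s) :=
              Finset.sum_le_sum (fun p _ => mul_le_mul_right (hΓb p s) _)
          _ = c + ∑ p : St M, (L.init.map (fun j => (j, false))) {p} * Γ p s := by
              simp only [mul_add]
              rw [Finset.sum_add_distrib, ← Finset.sum_mul, hw, one_mul]
    _ = c + ∑ p : St M, (L.init.map (fun j => (j, false))) {p}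
          * ∫⁻ s, Γ p s ∂(uniformSphere d) := by
        rw [lintegral_add_left measurable_const, lintegral_const, measure_univ, mul_one,
          lintegral_finsetSum _ (fun p _ => (hΓm p).const_mul _)]
        congr 1
        refine Finset.sum_congr rfl (fun p _ => ?_)
        rw [lintegral_const_mul _ (hΓm p)]
    _ ≤ c + ∑ p : St M, (L.init.map (fun j => (j, false))) {p} * π := by
        gcongr with p _
        exact hΓi p
    _ = c + π := by
        rw [← Finset.sum_mul, hw, one_mul]

end Vale.Agent.Lib.P309
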