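import Vale.Agent.Lib.P309.Multi.LQ

namespace Vale.Agent.Lib.P309

open MeasureTheory ProbabilityTheory Metric Set
open scoped ENNReal

/-- The difference between a vector and its Gram-Schmidt vector lies in the span of the earlier
vectors. -/
lemma diagmono_sub_mem {d n : ℕ} (X : Fin n → Vec d) (i : Fin n) :
    X i - InnerProductSpace.gramSchmidt ℝ X i ∈ Submodule.span ℝ (X '' Set.Iio i) := by
  rw [← InnerProductSpace.span_gramSchmidt_Iio ℝ X i]
  have h := gsaux_formula X i
  have e : X i - InnerProductSpace.gramSchmidt ℝ X i = ∑ l ∈ Finset.Iio i,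
      (inner ℝ (InnerProductSpace.gramSchmidt ℝ X l) (X i)
        / ‖InnerProductSpace.gramSchmidt ℝ X l‖ ^ 2) • InnerProductSpace.gramSchmidt ℝ X l := by
    rw [h]
    abel
  rw [e]
  exact Submodule.sum_mem _ (fun l hl => Submodule.smul_mem _ _
    (Submodule.subset_span ⟨l, Finset.mem_Iio.1 hl, rfl⟩))

/-- The Gram-Schmidt vector is orthogonal to the span of the earlier vectors. -/
lemma diagmono_inner_zero {d n : ℕ} (X : Fin n → Vec d) (i : Fin n) {w : Vec d}
    (hw : w ∈ Submodule.span ℝ (X '' Set.Iio i)) :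
    inner ℝ (InnerProductSpace.gramSchmidt ℝ X i) w = 0 := by
  have hle : Submodule.span ℝ (X '' Set.Iio i)
      ≤ (Submodule.span ℝ {InnerProductSpace.gramSchmidt ℝ X i})ᗮ := by
    rw [Submodule.span_le]
    rintro _ ⟨l, hl, rfl⟩
    rw [SetLike.mem_coe, Submodule.mem_orthogonal_singleton_iff_inner_right]
    exact InnerProductSpace.gramSchmidt_inv_triangular ℝ X hl
  exact Submodule.mem_orthogonal_singleton_iff_inner_right.mp (hle hw)

/-- The normalised Gram-Schmidt vector, written out. -/
lemma diagmono_gsN {d n : ℕ} (X : Fin n → Vec d) (i : Fin n) :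
    gsN X i = (‖InnerProductSpace.gramSchmidt ℝ X i‖)⁻¹ • InnerProductSpace.gramSchmidt ℝ X i := by
  simp [gsN, InnerProductSpace.gramSchmidtNormed]

/-- The diagonal coefficient is the norm of the Gram-Schmidt vector. -/
lemma diagmono_lqCoef_diag {d n : ℕ} (X : Fin n → Vec d) (i : Fin n) :
    lqCoef X i i = ‖InnerProductSpace.gramSchmidt ℝ X i‖ := by
  have h0 := diagmono_inner_zero X i (diagmono_sub_mem X i)
  have h1 : inner ℝ (InnerProductSpace.gramSchmidt ℝ X i) (X i)
      = ‖InnerProductSpace.gramSchmidt ℝ X i‖ ^ 2 := by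
    rw [inner_sub_right, real_inner_self_eq_norm_sq] at h0
    linarith
  simp only [lqCoef]
  rw [diagmono_gsN, real_inner_smul_left, h1]
  by_cases hz : ‖InnerProductSpace.gramSchmidt ℝ X i‖ = 0
  · rw [hz]
    simp
  · field_simp

end Vale.Agent.Lib.P309
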