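import Vale.Agent.Lib.P309.Model

namespace Vale.Agent.Lib.P309

open MeasureTheory ProbabilityTheory Metric Set
open scoped ENNReal

/-- A power of a Gaussian mean is the mean of a product over independent copies. -/
lemma momt_pow_eq {m r : ℕ} (h : Vec m → ℝ≥0∞) (hh : Measurable h) :
    (∫⁻ c, h c ∂(stdGaussian (Vec m))) ^ r
      = ∫⁻ C, ∏ i : Fin r, h (C i) ∂(Measure.pi (fun _ : Fin r => stdGaussian (Vec m))) := by
  have hind : iIndepFun (fun (l : Fin r) (x : Fin r → Vec m) => h (x l))
      (Measure.pi (fun _ : Fin r => stdGaussian (Vec m))) :=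
    iIndepFun_pi (X := fun _ : Fin r => h) (fun _ => hh.aemeasurable)
  have h2 : ∀ l : Fin r, ∫⁻ x, h (x l) ∂(Measure.pi (fun _ : Fin r => stdGaussian (Vec m)))
      = ∫⁻ g, h g ∂(stdGaussian (Vec m)) := fun l =>
    (measurePreserving_eval (fun _ : Fin r => stdGaussian (Vec m)) l).lintegral_comp hh
  rw [lintegral_prod_eq_prod_lintegral_of_indepFun Finset.univ _ hind
    (fun l => hh.comp (measurable_pi_apply l)), Finset.prod_congr rfl (fun l _ => h2 l),
    Finset.prod_const, Finset.card_univ, Fintype.card_fin]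

end Vale.Agent.Lib.P309
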